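import Crest.Agent.R214.Chk

/-! Row 214: gluing of sub-certificates. -/

set_option autoImplicit false

namespace Crest.Agent.R214

def Box.hi (b : Box) (d p : ℕ) : Box := b.setHi d (mkRat p 1048576)
def Box.lo (b : Box) (d p : ℕ) : Box := b.setLo d (mkRat p 1048576)

/-- some tree certifies the box -/
def Ok (cs : ℕ) (b : Box) : Prop := ∃ t : Tr, chk cs t b = true

theorem Ok.split {cs : ℕ} {b : Box} (d p : ℕ) (h1 : Ok cs (b.hi d p)) (h2 : Ok cs (b.lo d p)) :
    Ok cs b := by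
  obtain ⟨t, ht⟩ := h1
  obtain ⟨u, hu⟩ := h2
  refine ⟨.X d p t u, ?_⟩
  unfold chk
  unfold Box.hi at ht
  unfold Box.lo at hu
  rw [ht, hu]; rfl

end Crest.Agent.R214
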